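import Vale.Agent.Lib.P137.MtildeDef

/-! The standard total variation of a locally integrable function on `R^d`. -/

open MeasureTheory Metric Set Filter Topology
open scoped ENNReal

noncomputable section

namespace ValeP137

variable {d : ℕ}

/-- The divergence of a vector field on `R^d`. -/
def divv (φ : EuclideanSpace ℝ (Fin d) → EuclideanSpace ℝ (Fin d))
    (x : EuclideanSpace ℝ (Fin d)) : ℝ :=
  ∑ i, inner ℝ (fderiv ℝ φ x (EuclideanSpace.single i 1)) (EuclideanSpace.single i 1)

/-- The total variation of `u`, that is the supremum of `∫ u div φ` over all `C^1` compactly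
supported vector fields `φ` with `|φ| ≤ 1`. -/
def totalVar (u : EuclideanSpace ℝ (Fin d) → ℝ) : ℝ≥0∞ :=
  ⨆ (φ : EuclideanSpace ℝ (Fin d) → EuclideanSpace ℝ (Fin d)) (_ : ContDiff ℝ 1 φ)
    (_ : HasCompactSupport φ) (_ : ∀ x, ‖φ x‖ ≤ 1),
    ENNReal.ofReal (∫ x, u x * divv φ x)

end ValeP137
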