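import Vale.Agent.Lib.P137W.Density
import Vale.Agent.Lib.P137BV.Defs

/-! Smooth approximation of a function of bounded variation. -/

open MeasureTheory Metric Set Filter Topology
open scoped ENNReal ContDiff Convolution

noncomputable section

namespace ValeP137

variable {d : ℕ}

theorem le_totalVar (u : E d → ℝ) {Φ : E d → E d} (h1 : ContDiff ℝ 1 Φ) (h2 : HasCompactSupport Φ)
    (h3 : ∀ x, ‖Φ x‖ ≤ 1) : ENNReal.ofReal (∫ x, u x * divv Φ x) ≤ totalVar u :=
  le_iSup_of_le Φ (le_iSup_of_le h1 (le_iSup_of_le h2 (le_iSup_of_le h3 le_rfl)))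

/-- The mollifier is self adjoint. -/
theorem molD_adjoint (φ : ContDiffBump (0 : E d)) {f : E d → ℝ} (hf : Integrable f volume)
    {χ : E d → ℝ} (hχ : Continuous χ) (hχc : HasCompactSupport χ) :
    ∫ x, molD φ f x * χ x = ∫ x, f x * molD φ χ x := by
  set ρ : E d → ℝ := φ.normed volume with hρ
  have hρi : Integrable ρ volume := φ.integrable_normed
  obtain ⟨C, hC⟩ := hχc.exists_bound_of_continuous hχ
  -- first Fubini
  have hI1 : Integrable (Function.uncurry fun (x t : E d) => ρ t * f (x - t) * χ x)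
      ((volume : Measure (E d)).prod volume) := by
    have h1 := hρi.convolution_integrand (ContinuousLinearMap.mul ℝ ℝ) hf
      (μ := volume) (ν := volume)
    have h2 : Integrable (fun p : E d × E d => (ρ p.2 * f (p.1 - p.2)) * χ p.1)
        ((volume : Measure (E d)).prod volume) := by
      refine h1.mul_bdd (c := C) (hχ.comp continuous_fst).aestronglyMeasurable
        (Eventually.of_forall fun p => hC p.1)
    exact h2
  have hI2 : Integrable (Function.uncurry fun (t y : E d) => ρ t * f y * χ (y + t))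
      ((volume : Measure (E d)).prod volume) := by
    have h1 : Integrable (fun p : E d × E d => ρ p.1 * f p.2)
        ((volume : Measure (E d)).prod volume) := hρi.mul_prod hf
    refine h1.mul_bdd (c := C) (hχ.comp (continuous_snd.add continuous_fst)).aestronglyMeasurable
      (Eventually.of_forall fun p => hC _)
  calc ∫ x, molD φ f x * χ x
      = ∫ x, ∫ t, ρ t * f (x - t) * χ x := by
        refine integral_congr_ae (Eventually.of_forall fun x => ?_)
        simp only [molD_apply, smul_eq_mul]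
        rw [integral_mul_const]
    _ = ∫ t, ∫ x, ρ t * f (x - t) * χ x := integral_integral_swap hI1
    _ = ∫ t, ∫ y, ρ t * f y * χ (y + t) := by
        refine integral_congr_ae (Eventually.of_forall fun t => ?_)
        have := integral_sub_right_eq_self (μ := (volume : Measure (E d)))
          (fun y => ρ t * f y * χ (y + t)) t
        simp only [sub_add_cancel] at this
        exact this
    _ = ∫ y, ∫ t, ρ t * f y * χ (y + t) := integral_integral_swap hI2
    _ = ∫ y, f y * molD φ χ y := by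
        refine integral_congr_ae (Eventually.of_forall fun y => ?_)
        simp only [molD_apply, smul_eq_mul]
        rw [← integral_const_mul]
        have h1 := integral_neg_eq_self (μ := (volume : Measure (E d)))
          (fun t => f y * (ρ t * χ (y - t)))
        rw [← h1]
        refine integral_congr_ae (Eventually.of_forall fun t => ?_)
        simp only [sub_neg_eq_add]
        show ρ t * f y * χ (y + t) = f y * (ρ (-t) * χ (y + t))
        rw [hρ, φ.normed_neg]
        ring

/-- Derivative of the mollification of a smooth compactly supported function. -/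
theorem molD_fderiv (φ : ContDiffBump (0 : E d)) {ψ : E d → ℝ} (hψ : ContDiff ℝ 1 ψ)
    (hψc : HasCompactSupport ψ) (x v : E d) :
    fderiv ℝ (molD φ ψ) x v = molD φ (fun a => fderiv ℝ ψ a v) x := by
  have h1 := hψc.hasFDerivAt_convolution_right (ContinuousLinearMap.lsmul ℝ ℝ)
    (f := φ.normed volume) (μ := volume) φ.integrable_normed.locallyIntegrable hψ x
  have h2 : fderiv ℝ (molD φ ψ) x = _ := h1.fderiv
  rw [h2]
  exact convolution_precompR_apply (ContinuousLinearMap.lsmul ℝ ℝ)
    φ.integrable_normed.locallyIntegrable (hψc.fderiv ℝ) (hψ.continuous_fderiv one_ne_zero) x v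

theorem molD_norm_le (φ : ContDiffBump (0 : E d)) {ψ : E d → ℝ} (hψ1 : ∀ x, |ψ x| ≤ 1) (x : E d) :
    |molD φ ψ x| ≤ 1 := by
  rw [molD_apply]
  have h1 : ‖∫ t, φ.normed volume t • ψ (x - t)‖ ≤ ∫ t, φ.normed volume t := by
    refine norm_integral_le_of_norm_le φ.integrable_normed (Eventually.of_forall fun t => ?_)
    rw [norm_smul, Real.norm_of_nonneg (φ.nonneg_normed t)]
    exact mul_le_of_le_one_right (φ.nonneg_normed t) (hψ1 _)
  rw [φ.integral_normed] at h1
  simpa [Real.norm_eq_abs] using h1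

/-- The duality step: the pairing of a derivative of the mollification with a test function
is bounded by the total variation. -/
theorem molD_pairing (φ : ContDiffBump (0 : E d)) {f : E d → ℝ} (hf : Integrable f volume)
    {ψ : E d → ℝ} (hψ : ContDiff ℝ ∞ ψ) (hψc : HasCompactSupport ψ) (hψ1 : ∀ x, |ψ x| ≤ 1)
    (i : Fin d) :
    ENNReal.ofReal (∫ x, fderiv ℝ (molD φ f) x (EuclideanSpace.single i 1) * ψ x) ≤ totalVar f := by
  set v : E d := EuclideanSpace.single i 1 with hv
  have hvn : ‖v‖ = 1 := by simp [hv]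
  have hψ1' : ContDiff ℝ 1 ψ := hψ.of_le (by simp)
  set g := molD φ f with hg
  have hgs : ContDiff ℝ ∞ g := molD_contDiff φ hf.locallyIntegrable
  have hg1 : ContDiff ℝ 1 g := hgs.of_le (by simp)
  set m := molD φ ψ with hm
  have hms : ContDiff ℝ ∞ m := molD_contDiff φ hψ.continuous.locallyIntegrable
  have hm1 : ContDiff ℝ 1 m := hms.of_le (by simp)
  have hmc : HasCompactSupport m := (φ.hasCompactSupport_normed).convolution _ hψc
  set Φ : E d → E d := fun x => (- m x) • v with hΦ
  have hΦ1 : ContDiff ℝ 1 Φ := (hm1.neg).smul contDiff_const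
  have hΦc : HasCompactSupport Φ := by
    refine hmc.mono fun x hx hx0 => hx ?_
    simp [hΦ, hx0]
  have hΦn : ∀ x, ‖Φ x‖ ≤ 1 := by
    intro x
    simp only [hΦ, norm_smul, hvn, mul_one, norm_neg, Real.norm_eq_abs]
    exact molD_norm_le φ hψ1 x
  have hin : ∀ a b : Fin d, inner ℝ (EuclideanSpace.single a (1 : ℝ) : E d)
      (EuclideanSpace.single b (1 : ℝ)) = if a = b then 1 else 0 := by
    intro a b
    have := (orthonormal_iff_ite.1 (EuclideanSpace.orthonormal_single (𝕜 := ℝ) (ι := Fin d))) a b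
    simpa using this
  have hdiv : ∀ x, divv Φ x = - fderiv ℝ m x v := by
    intro x
    have hmd : DifferentiableAt ℝ m x := hm1.differentiable one_ne_zero x
    have hder : HasFDerivAt Φ ((- fderiv ℝ m x).smulRight v) x :=
      (hmd.hasFDerivAt.neg).smul_const v
    unfold divv
    rw [hder.fderiv, Finset.sum_eq_single i]
    · simp only [ContinuousLinearMap.smulRight_apply, neg_apply,
        inner_smul_left, hv, hin, if_true]
      simp
    · intro j _ hj
      simp only [ContinuousLinearMap.smulRight_apply, neg_apply,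
        inner_smul_left, hv, hin, if_neg (Ne.symm hj)]
      simp
    · simp
  have hdψ : Continuous fun x => fderiv ℝ ψ x v :=
    (hψ1'.continuous_fderiv one_ne_zero).clm_apply continuous_const
  have hdψc : HasCompactSupport fun x => fderiv ℝ ψ x v :=
    (hψc.fderiv ℝ).comp_left (g := fun L : E d →L[ℝ] ℝ => L v) (by simp)
  -- integration by parts
  have hdg : Continuous fun x => fderiv ℝ g x v :=
    (hg1.continuous_fderiv one_ne_zero).clm_apply continuous_const
  have hibp : ∫ x, fderiv ℝ g x v * ψ x = - ∫ x, g x * fderiv ℝ ψ x v := by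
    have h1 := integral_mul_fderiv_eq_neg_fderiv_mul_of_integrable (μ := volume) (𝕜 := ℝ)
      (f := ψ) (g := g) (v := v)
      ((hdψ.mul hg1.continuous).integrable_of_hasCompactSupport hdψc.mul_right)
      ((hψ1'.continuous.mul hdg).integrable_of_hasCompactSupport hψc.mul_right)
      ((hψ1'.continuous.mul hg1.continuous).integrable_of_hasCompactSupport hψc.mul_right)
      (fun x _ => hψ1'.differentiable one_ne_zero x) (fun x _ => hg1.differentiable one_ne_zero x)
    calc ∫ x, fderiv ℝ g x v * ψ x = ∫ x, ψ x * fderiv ℝ g x v := by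
          refine integral_congr_ae (Eventually.of_forall fun x => ?_)
          exact mul_comm _ _
      _ = - ∫ x, fderiv ℝ ψ x v * g x := h1
      _ = _ := by
          congr 1
          refine integral_congr_ae (Eventually.of_forall fun x => ?_)
          exact mul_comm _ _
  have hadj := molD_adjoint φ hf hdψ hdψc
  have hfinal : ∫ x, fderiv ℝ g x v * ψ x = ∫ x, f x * divv Φ x := by
    rw [hibp, hadj, ← integral_neg]
    refine integral_congr_ae (Eventually.of_forall fun x => ?_)
    simp only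
    rw [hdiv x, hm, molD_fderiv φ hψ1' hψc x v]
    ring
  rw [hfinal]
  exact le_totalVar f hΦ1 hΦc hΦn

/-- Each partial derivative of the mollification has `L^1` norm at most the total variation. -/
theorem molD_partial_le (φ : ContDiffBump (0 : E d)) {f : E d → ℝ} (hf : Integrable f volume)
    (i : Fin d) :
    ∫⁻ x, ‖fderiv ℝ (molD φ f) x (EuclideanSpace.single i 1)‖ₑ ≤ totalVar f := by
  set v : E d := EuclideanSpace.single i 1 with hv
  set g := molD φ f with hg
  have hgs : ContDiff ℝ ∞ g := molD_contDiff φ hf.locallyIntegrable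
  have hg1 : ContDiff ℝ 1 g := hgs.of_le (by simp)
  set w : E d → ℝ := fun x => fderiv ℝ g x v with hw
  have hws : ContDiff ℝ ∞ w := by
    have h1 : ContDiff ℝ ∞ (fderiv ℝ g) := hgs.fderiv_right (m := ∞) (by simp)
    exact h1.clm_apply contDiff_const
  have hwc : Continuous w := hws.continuous
  set δ : ℕ → ℝ := fun n => ((n : ℝ) + 1)⁻¹ with hδ
  have hδpos : ∀ n, 0 < δ n := fun n => by simp only [hδ]; positivity
  have hsq : ∀ n x, 0 < w x ^ 2 + δ n ^ 2 := fun n x => by have := hδpos n; positivity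
  -- test functions
  set ψ : ℕ → E d → ℝ := fun n x => chiD ((n : ℝ) + 1) x * (w x / √(w x ^ 2 + δ n ^ 2)) with hψ
  have hψs : ∀ n, ContDiff ℝ ∞ (ψ n) := by
    intro n
    refine (chiD_contDiff _).mul (hws.div ?_ fun x => ?_)
    · exact ContDiff.sqrt ((hws.pow 2).add contDiff_const) fun x => (hsq n x).ne'
    · exact (Real.sqrt_pos.mpr (hsq n x)).ne'
  have hψc : ∀ n, HasCompactSupport (ψ n) := fun n => (chiD_hcs (by positivity)).mul_right
  have hψ1 : ∀ n x, |ψ n x| ≤ 1 := by
    intro n x
    simp only [hψ]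
    rw [abs_mul, abs_of_nonneg (chiD_nonneg _ x), abs_div,
      abs_of_nonneg (Real.sqrt_nonneg _)]
    have h1 : |w x| / √(w x ^ 2 + δ n ^ 2) ≤ 1 := by
      rw [div_le_one (Real.sqrt_pos.mpr (hsq n x))]
      exact Real.le_sqrt_of_sq_le (by nlinarith [sq_abs (w x), sq_nonneg (δ n)])
    calc _ ≤ 1 * 1 := mul_le_mul (chiD_le_one _ x) h1 (by positivity) zero_le_one
      _ = 1 := one_mul 1
  -- the integrands
  set Q : ℕ → E d → ℝ≥0∞ := fun n x => ENNReal.ofReal (w x * ψ n x) with hQ
  have hQnn : ∀ n x, 0 ≤ w x * ψ n x := by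
    intro n x
    simp only [hψ]
    have h1 := chiD_nonneg ((n : ℝ) + 1) x
    have h2 := Real.sqrt_nonneg (w x ^ 2 + δ n ^ 2)
    have : w x * (chiD ((n : ℝ) + 1) x * (w x / √(w x ^ 2 + δ n ^ 2))) =
        chiD ((n : ℝ) + 1) x * (w x ^ 2 / √(w x ^ 2 + δ n ^ 2)) := by ring
    rw [this]
    positivity
  have hQbd : ∀ n, ∫⁻ x, Q n x ≤ totalVar f := by
    intro n
    have hcont : Continuous fun x => w x * ψ n x := hwc.mul (hψs n).continuous
    have hint : Integrable (fun x => w x * ψ n x) volume :=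
      hcont.integrable_of_hasCompactSupport (hψc n).mul_left
    simp only [hQ]
    rw [← ofReal_integral_eq_lintegral_ofReal hint (Eventually.of_forall (hQnn n))]
    exact molD_pairing φ hf (hψs n) (hψc n) (hψ1 n) i
  have hQm : ∀ n, Measurable (Q n) := fun n =>
    (hwc.mul (hψs n).continuous).measurable.ennreal_ofReal
  have hlim : ∀ x, Tendsto (fun n => Q n x) atTop (𝓝 ‖w x‖ₑ) := by
    intro x
    have hδ0 : Tendsto δ atTop (𝓝 0) := by
      have := tendsto_one_div_add_atTop_nhds_zero_nat (𝕜 := ℝ)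
      simpa only [one_div] using this
    have hχ1 : Tendsto (fun n : ℕ => chiD ((n : ℝ) + 1) x) atTop (𝓝 1) := by
      refine tendsto_const_nhds.congr' ?_
      filter_upwards [eventually_ge_atTop ⌈‖x‖⌉₊] with n hn
      have h1 : ‖x‖ ≤ (n : ℝ) + 1 := by
        have h2 : ‖x‖ ≤ n := (Nat.le_ceil _).trans (by exact_mod_cast hn)
        linarith
      rw [chiD_eq_one (by positivity) h1]
    have hmain : Tendsto (fun n => w x * ψ n x) atTop (𝓝 |w x|) := by
      by_cases hw0 : w x = 0
      · simp [hψ, hw0]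
      · have hs : Tendsto (fun n => √(w x ^ 2 + δ n ^ 2)) atTop (𝓝 √(w x ^ 2 + 0 ^ 2)) := by
          exact (tendsto_const_nhds.add (hδ0.pow 2)).sqrt
        have hs' : √(w x ^ 2 + 0 ^ 2) = |w x| := by
          rw [show w x ^ 2 + 0 ^ 2 = w x ^ 2 by ring, Real.sqrt_sq_eq_abs]
        rw [hs'] at hs
        have hne : |w x| ≠ 0 := abs_ne_zero.mpr hw0
        have h3 := ((tendsto_const_nhds (x := w x)).mul
          (hχ1.mul ((tendsto_const_nhds (x := w x)).div hs hne)))
        have h4 : w x * (1 * (w x / |w x|)) = |w x| := by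
          rw [one_mul, ← mul_div_assoc, ← sq, ← sq_abs, sq, mul_div_assoc,
            div_self hne, mul_one]
        rw [h4] at h3
        exact h3
    have h5 := ENNReal.tendsto_ofReal hmain
    rw [← Real.norm_eq_abs, ofReal_norm] at h5
    exact h5
  calc ∫⁻ x, ‖w x‖ₑ = ∫⁻ x, liminf (fun n => Q n x) atTop :=
        lintegral_congr fun x => (hlim x).liminf_eq.symm
    _ ≤ liminf (fun n => ∫⁻ x, Q n x) atTop := lintegral_liminf_le hQm
    _ ≤ totalVar f := liminf_le_of_frequently_le' (Frequently.of_forall hQbd)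

/-- The operator norm of a functional is at most the sum over the coordinate vectors. -/
private theorem norm_le_sum_single' (L : E d →L[ℝ] ℝ) :
    ‖L‖ ≤ ∑ i, ‖L (EuclideanSpace.single i 1)‖ := by
  refine L.opNorm_le_bound (Finset.sum_nonneg fun _ _ => norm_nonneg _) fun v => ?_
  have hv : v = ∑ i, (v i) • EuclideanSpace.single i (1 : ℝ) := by
    ext j
    simp [Finset.sum_apply, Pi.single_apply]
  calc ‖L v‖ = ‖∑ i, (v i) * L (EuclideanSpace.single i 1)‖ := by
        conv_lhs => rw [hv, map_sum]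
        simp
    _ ≤ ∑ i, ‖(v i) * L (EuclideanSpace.single i 1)‖ := norm_sum_le _ _
    _ ≤ ∑ i, ‖v‖ * ‖L (EuclideanSpace.single i 1)‖ := by
        refine Finset.sum_le_sum fun i _ => ?_
        rw [norm_mul]
        gcongr
        exact PiLp.norm_apply_le v i
    _ = _ := by rw [← Finset.mul_sum, mul_comm]

private theorem norm_gradient_eq' (g : E d → ℝ) (x : E d) : ‖gradient g x‖ = ‖fderiv ℝ g x‖ := by
  unfold gradient
  simp

/-- Mollified `BV` functions have gradient bounded by the variation (up to the factor `d`). -/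
theorem molD_gradient_le (hd : 1 ≤ d) {f : E d → ℝ} (hf : Integrable f volume)
    (φ : ContDiffBump (0 : E d)) :
    ∫⁻ x, ‖gradient (molD φ f) x‖ₑ ≤ ENNReal.ofReal d * totalVar f := by
  set g := molD φ f with hg
  have hgs : ContDiff ℝ ∞ g := molD_contDiff φ hf.locallyIntegrable
  have hg1 : ContDiff ℝ 1 g := hgs.of_le (by simp)
  have hpt : ∀ x, ‖gradient g x‖ₑ ≤ ∑ i, ‖fderiv ℝ g x (EuclideanSpace.single i 1)‖ₑ := by
    intro x
    rw [← ofReal_norm, norm_gradient_eq']
    calc _ ≤ ENNReal.ofReal (∑ i, ‖fderiv ℝ g x (EuclideanSpace.single i 1)‖) :=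
          ENNReal.ofReal_le_ofReal (norm_le_sum_single' _)
      _ = _ := by
          rw [ENNReal.ofReal_sum_of_nonneg fun _ _ => norm_nonneg _]
          simp only [ofReal_norm]
  have hmeas : ∀ i : Fin d, Measurable fun x => ‖fderiv ℝ g x (EuclideanSpace.single i 1)‖ₑ := by
    intro i
    exact (measurable_fderiv_apply_const ℝ g _).enorm
  calc _ ≤ ∫⁻ x, ∑ i, ‖fderiv ℝ g x (EuclideanSpace.single i 1)‖ₑ := lintegral_mono hpt
    _ = ∑ i : Fin d, ∫⁻ x, ‖fderiv ℝ g x (EuclideanSpace.single i 1)‖ₑ :=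
        lintegral_finsetSum _ fun i _ => hmeas i
    _ ≤ ∑ _i : Fin d, totalVar f := Finset.sum_le_sum fun i _ => molD_partial_le φ hf i
    _ = _ := by
        rw [Finset.sum_const, Finset.card_univ, Fintype.card_fin, nsmul_eq_mul,
          ENNReal.ofReal_natCast]

/-- Mollification plus cut-off. -/
theorem exists_close_bv (hd : 1 ≤ d) {f : E d → ℝ} (hf : Integrable f volume) {ε : ℝ} (hε : 0 < ε) :
    ∃ F : E d → ℝ, ContDiff ℝ ∞ F ∧ HasCompactSupport F ∧
      ∫⁻ x, ‖f x - F x‖ₑ ≤ ENNReal.ofReal ε ∧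
      ∫⁻ x, ‖gradient F x‖ₑ ≤ ENNReal.ofReal d * totalVar f + ENNReal.ofReal ε := by
  have hε3 : 0 < ε / 3 := by positivity
  obtain ⟨δ₁, hδ₁, h1⟩ := molD_close hf hε3
  let φ : ContDiffBump (0 : E d) := ⟨δ₁ / 4, δ₁ / 2, by positivity, by linarith⟩
  have hφr : φ.rOut < δ₁ := by
    change δ₁ / 2 < δ₁
    linarith
  have hφ1 := h1 φ hφr
  obtain ⟨C, hC0, hC⟩ := exists_chi_bound d
  set m : E d → ℝ := molD φ f with hm
  have hms : ContDiff ℝ ∞ m := molD_contDiff φ hf.locallyIntegrable
  have hmd : Differentiable ℝ m := (hms.of_le (by simp) : ContDiff ℝ 1 m).differentiable (by simp)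
  have hmc : Continuous m := hms.continuous
  set A : ℝ≥0∞ := ∫⁻ x, ‖f x‖ₑ with hA
  have hAt : A ≠ ⊤ := hf.2.ne
  have hgrad : Tendsto (fun n : ℕ => ENNReal.ofReal (C * ((n : ℝ) + 1)⁻¹) * A) atTop (𝓝 0) := by
    have h3 : Tendsto (fun n : ℕ => C * ((n : ℝ) + 1)⁻¹) atTop (𝓝 0) := by
      have h4 : Tendsto (fun n : ℕ => ((n : ℝ) + 1)⁻¹) atTop (𝓝 0) := by
        have := tendsto_one_div_add_atTop_nhds_zero_nat (𝕜 := ℝ)
        simpa only [one_div] using this
      simpa using h4.const_mul C
    have h5 := (ENNReal.continuous_ofReal.tendsto _).comp h3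
    simp only [ENNReal.ofReal_zero] at h5
    have h6 := ENNReal.Tendsto.mul_const (b := A) h5 (Or.inr hAt)
    simpa using h6
  have hpos3 : (0 : ℝ≥0∞) < ENNReal.ofReal (ε / 3) := by simpa using hε3
  have hev := ((tail_tendsto hf).eventually (gt_mem_nhds hpos3)).and
    (hgrad.eventually (gt_mem_nhds hpos3))
  obtain ⟨n, hn1, hn3⟩ := hev.exists
  set R : ℝ := (n : ℝ) + 1 with hR
  have hRpos : 0 < R := by positivity
  set χ : E d → ℝ := chiD R with hχ
  have hχs : ContDiff ℝ ∞ χ := chiD_contDiff R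
  have hχd : Differentiable ℝ χ := (hχs.of_le (by simp) : ContDiff ℝ 1 χ).differentiable (by simp)
  have hχc : Continuous χ := hχs.continuous
  have hχ0 : ∀ x, 0 ≤ χ x := chiD_nonneg R
  have hχ1 : ∀ x, χ x ≤ 1 := chiD_le_one R
  have hχn : ∀ x, ‖χ x‖ₑ ≤ 1 := by
    intro x
    rw [Real.enorm_eq_ofReal (hχ0 x), ← ENNReal.ofReal_one]
    exact ENNReal.ofReal_le_ofReal (hχ1 x)
  have hgradF : ∀ x, gradient (fun y => χ y * m y) x =
      χ x • gradient m x + m x • gradient χ x := by
    intro x
    have hχ' : HasFDerivAt χ (fderiv ℝ χ x) x := (hχd x).hasFDerivAt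
    have hm' : HasFDerivAt m (fderiv ℝ m x) x := (hmd x).hasFDerivAt
    have hprod := hχ'.mul hm'
    have : HasGradientAt (fun y => χ y * m y) (χ x • gradient m x + m x • gradient χ x) x := by
      rw [hasGradientAt_iff_hasFDerivAt]
      have key : (InnerProductSpace.toDual ℝ (E d)) (χ x • gradient m x + m x • gradient χ x) =
          χ x • fderiv ℝ m x + m x • fderiv ℝ χ x := by
        ext v
        simp [gradient, InnerProductSpace.toDual_apply_apply]
      rw [key]
      exact hprod
    exact this.gradient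
  refine ⟨fun y => χ y * m y, hχs.mul hms, (chiD_hcs hRpos).mul_right, ?_, ?_⟩
  · have hpt : ∀ x, ‖f x - χ x * m x‖ₑ ≤ ‖(1 - χ x) • f x‖ₑ + ‖m x - f x‖ₑ := by
      intro x
      have e : f x - χ x * m x = (1 - χ x) • f x - χ x * (m x - f x) := by
        simp only [smul_eq_mul]
        ring
      rw [e]
      refine (enorm_sub_le).trans (add_le_add le_rfl ?_)
      rw [enorm_mul]
      calc _ ≤ 1 * ‖m x - f x‖ₑ := by gcongr; exact hχn x
        _ = _ := one_mul _
    have hm1 : AEMeasurable (fun x => ‖(1 - χ x) • f x‖ₑ) volume :=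
      (((continuous_const.sub hχc).aestronglyMeasurable).smul hf.aestronglyMeasurable).enorm
    calc ∫⁻ x, ‖f x - χ x * m x‖ₑ
        ≤ ∫⁻ x, (‖(1 - χ x) • f x‖ₑ + ‖m x - f x‖ₑ) := lintegral_mono hpt
      _ = (∫⁻ x, ‖(1 - χ x) • f x‖ₑ) + ∫⁻ x, ‖m x - f x‖ₑ := lintegral_add_left' hm1 _
      _ ≤ ENNReal.ofReal (ε / 3) + ENNReal.ofReal (ε / 3) := add_le_add hn1.le hφ1
      _ ≤ ENNReal.ofReal ε := by
          rw [← ENNReal.ofReal_add hε3.le hε3.le]
          exact ENNReal.ofReal_le_ofReal (by linarith)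
  · have hpt : ∀ x, ‖gradient (fun y => χ y * m y) x‖ₑ ≤
        ‖gradient m x‖ₑ + ENNReal.ofReal (C * R⁻¹) * ‖m x‖ₑ := by
      intro x
      rw [hgradF]
      refine (enorm_add_le _ _).trans (add_le_add ?_ ?_)
      · rw [enorm_smul]
        calc _ ≤ 1 * ‖gradient m x‖ₑ := by gcongr; exact hχn x
          _ = _ := one_mul _
      · rw [enorm_smul, mul_comm]
        gcongr
        rw [← ofReal_norm]
        exact ENNReal.ofReal_le_ofReal (hC R hRpos x)
    have hm1 : Measurable (fun x => ‖gradient m x‖ₑ) := by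
      have hcg : Continuous (gradient m) := by
        have hcf : Continuous (fderiv ℝ m) :=
          (hms.of_le (by simp) : ContDiff ℝ 1 m).continuous_fderiv (by simp)
        unfold gradient
        exact (InnerProductSpace.toDual ℝ (E d)).symm.continuous.comp hcf
      exact hcg.measurable.enorm
    calc ∫⁻ x, ‖gradient (fun y => χ y * m y) x‖ₑ
        ≤ ∫⁻ x, (‖gradient m x‖ₑ + ENNReal.ofReal (C * R⁻¹) * ‖m x‖ₑ) := lintegral_mono hpt
      _ = (∫⁻ x, ‖gradient m x‖ₑ) + ∫⁻ x, ENNReal.ofReal (C * R⁻¹) * ‖m x‖ₑ :=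
          lintegral_add_left hm1 _
      _ ≤ ENNReal.ofReal d * totalVar f + ENNReal.ofReal (ε / 3) := by
          refine add_le_add (molD_gradient_le hd hf φ) ?_
          rw [lintegral_const_mul' _ _ ENNReal.ofReal_ne_top]
          refine le_trans ?_ hn3.le
          gcongr
          exact molD_young φ hf.aestronglyMeasurable
      _ ≤ _ := by
          gcongr
          linarith

/-- The approximating sequence. -/
theorem exists_approx_bv (hd : 1 ≤ d) {f : E d → ℝ} (hf : Integrable f volume) :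
    ∃ fk : ℕ → E d → ℝ, (∀ k, ContDiff ℝ ∞ (fk k)) ∧ (∀ k, HasCompactSupport (fk k)) ∧
      (∀ k, ∫⁻ x, ‖f x - fk k x‖ₑ ≤ ENNReal.ofReal ((1 / 4) ^ k)) ∧
      (∀ k, ∫⁻ x, ‖gradient (fk k) x‖ₑ ≤
        ENNReal.ofReal d * totalVar f + ENNReal.ofReal ((1 / 4) ^ k)) := by
  have hpos : ∀ k : ℕ, (0 : ℝ) < (1 / 4) ^ k := fun k => by positivity
  choose fk h1 h2 h3 h4 using fun k : ℕ => exists_close_bv hd hf (hpos k)
  exact ⟨fk, h1, h2, h3, h4⟩

end ValeP137
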