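import Vale.Agent.Lib.P137W.Basic
import Vale.Agent.Lib.P137BV.Defs

/-! From the translation bound to the total variation. -/

open MeasureTheory Metric Set Filter Topology
open scoped ENNReal

noncomputable section

namespace ValeP137

variable {d : ℕ}

private theorem dq_one_dir {u : E d → ℝ} (hu : LocallyIntegrable u volume) {A : ℝ≥0∞}
    (hbv : ∀ h : E d, ∫⁻ x, ‖u (x + h) - u x‖ₑ ≤ ENNReal.ofReal ‖h‖ * A)
    {φ : E d → E d} (hφ : ContDiff ℝ 1 φ) (hcs : HasCompactSupport φ) (hle : ∀ x, ‖φ x‖ ≤ 1)
    {e : E d} (he : ‖e‖ = 1) :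
    ENNReal.ofReal (∫ x, u x * inner ℝ (fderiv ℝ φ x e) e) ≤ A := by
  -- the scalar function
  set w : E d → ℝ := fun x => inner ℝ (φ x) e with hw
  have hwc : Continuous w := hφ.continuous.inner continuous_const
  have hwle : ∀ x, ‖w x‖ ≤ 1 := fun x => by
    calc ‖w x‖ ≤ ‖φ x‖ * ‖e‖ := norm_inner_le_norm _ _
      _ ≤ 1 := by rw [he, mul_one]; exact hle x
  obtain ⟨C, hC⟩ := hφ.lipschitzWith_of_hasCompactSupport hcs (by norm_num)
  -- compact set
  set K : Set (E d) := cthickening 1 (tsupport φ) with hK
  have hKc : IsCompact K := hcs.isCompact.cthickening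
  have hKm : MeasurableSet K := hKc.measurableSet
  have huK : IntegrableOn u K volume := hu.integrableOn_isCompact hKc
  -- the sequence
  set t : ℕ → ℝ := fun n => ((n : ℝ) + 1)⁻¹ with ht
  have htpos : ∀ n, 0 < t n := fun n => by positivity
  have htle : ∀ n, t n ≤ 1 := fun n => by
    apply inv_le_one_of_one_le₀
    have : (0 : ℝ) ≤ n := Nat.cast_nonneg n
    linarith
  have htlim : Tendsto t atTop (𝓝 0) := tendsto_one_div_add_atTop_nhds_zero_nat.congr
    (fun n => by simp [ht])
  set g : ℕ → E d → ℝ := fun n x => u x * ((t n)⁻¹ * (w (x + t n • e) - w x)) with hg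
  -- pointwise limit
  have hlim : ∀ x, Tendsto (fun n => g n x) atTop (𝓝 (u x * inner ℝ (fderiv ℝ φ x e) e)) := by
    intro x
    refine Tendsto.const_mul _ ?_
    have hd : HasFDerivAt φ (fderiv ℝ φ x) x :=
      (hφ.differentiable (by norm_num) x).hasFDerivAt
    have hline : HasDerivAt (fun s : ℝ => φ (x + s • e)) (fderiv ℝ φ x e) 0 := by
      have h1 : HasDerivAt (fun s : ℝ => x + s • e) e 0 := by
        simpa using ((hasDerivAt_id (0 : ℝ)).smul_const e).const_add x
      have h2 : HasFDerivAt φ (fderiv ℝ φ x) (x + (0 : ℝ) • e) := by simpa using hd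
      exact h2.comp_hasDerivAt (0 : ℝ) h1
    have hs := hline.hasDerivWithinAt (s := Set.Ioi 0)
    have hq := hasDerivWithinAt_iff_tendsto_slope'
      (f := fun s : ℝ => φ (x + s • e)) (f' := fderiv ℝ φ x e) (s := Set.Ioi 0) (x := 0)
      (by simp) |>.1 hs
    have htw : Tendsto t atTop (𝓝[Set.Ioi 0] 0) :=
      tendsto_nhdsWithin_iff.2 ⟨htlim, Eventually.of_forall (fun n => htpos n)⟩
    have hF : Continuous (fun v : E d => (inner ℝ v e : ℝ)) := continuous_id.inner continuous_const
    have hc := (hF.tendsto _).comp (hq.comp htw)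
    refine hc.congr (fun n => ?_)
    simp only [Function.comp, slope, vsub_eq_sub, zero_smul, add_zero, sub_zero, hw]
    rw [inner_smul_left, inner_sub_left]
    simp
  -- measurability and bound
  have hum : AEStronglyMeasurable u volume := hu.aestronglyMeasurable
  have hgm : ∀ n, AEStronglyMeasurable (g n) volume := fun n => by
    refine hum.mul (Continuous.aestronglyMeasurable ?_)
    exact continuous_const.mul ((hwc.comp (continuous_id.add continuous_const)).sub hwc)
  set bound : E d → ℝ := K.indicator (fun x => ‖u x‖ * C) with hbd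
  have hbdi : Integrable bound volume := by
    have : IntegrableOn (fun x => ‖u x‖ * (C : ℝ)) K volume := huK.norm.mul_const _
    exact this.integrable_indicator hKm
  have hwzero : ∀ x, x ∉ K → φ x = 0 := fun x hx => by
    apply image_eq_zero_of_notMem_tsupport
    intro h
    exact hx (self_subset_cthickening _ h)
  have hgbound : ∀ n, ∀ x, ‖g n x‖ ≤ bound x := by
    intro n x
    by_cases hx : x ∈ K
    · rw [hbd, indicator_of_mem hx]
      have h1 : ‖w (x + t n • e) - w x‖ ≤ C * t n := by
        have : w (x + t n • e) - w x = inner ℝ (φ (x + t n • e) - φ x) e := by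
          simp [hw, inner_sub_left]
        rw [this]
        calc ‖inner ℝ (φ (x + t n • e) - φ x) e‖ ≤ ‖φ (x + t n • e) - φ x‖ * ‖e‖ :=
              norm_inner_le_norm _ _
          _ = ‖φ (x + t n • e) - φ x‖ := by rw [he, mul_one]
          _ ≤ C * ‖x + t n • e - x‖ := by
              have := hC.dist_le_mul (x + t n • e) x
              simpa [dist_eq_norm] using this
          _ = C * t n := by
              rw [add_sub_cancel_left, norm_smul, he, mul_one, Real.norm_of_nonneg (htpos n).le]
      simp only [hg, norm_mul]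
      have htinv : ‖(t n)⁻¹‖ = (t n)⁻¹ := by
        rw [Real.norm_of_nonneg (inv_nonneg.2 (htpos n).le)]
      rw [htinv]
      refine mul_le_mul_of_nonneg_left ?_ (norm_nonneg _)
      calc (t n)⁻¹ * ‖w (x + t n • e) - w x‖ ≤ (t n)⁻¹ * (C * t n) :=
            mul_le_mul_of_nonneg_left h1 (inv_nonneg.2 (htpos n).le)
        _ = C := by field_simp [(htpos n).ne']
    · -- both terms vanish
      rw [hbd, indicator_of_notMem hx]
      have h0 : φ x = 0 := hwzero x hx
      have hnot : x + t n • e ∉ tsupport φ := by
        intro hmem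
        apply hx
        rw [hK, mem_cthickening_iff]
        refine le_trans (Metric.infEDist_le_edist_of_mem hmem) ?_
        rw [edist_dist, dist_eq_norm]
        have : x - (x + t n • e) = -(t n • e) := by abel
        rw [this, norm_neg, norm_smul, he, mul_one, Real.norm_of_nonneg (htpos n).le]
        exact ENNReal.ofReal_le_ofReal (htle n)
      have h1 : φ (x + t n • e) = 0 := image_eq_zero_of_notMem_tsupport hnot
      simp [hg, hw, h0, h1]
  -- dominated convergence
  have hconv : Tendsto (fun n => ∫ x, g n x) atTop (𝓝 (∫ x, u x * inner ℝ (fderiv ℝ φ x e) e)) :=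
    tendsto_integral_of_dominated_convergence bound hgm hbdi
      (fun n => Eventually.of_forall (hgbound n)) (Eventually.of_forall hlim)
  -- each term bounded
  have hgint : ∀ n, Integrable (g n) volume := fun n =>
    hbdi.mono' (hgm n) (Eventually.of_forall (hgbound n))
  have hcsw : HasCompactSupport w := hcs.comp_left (g := fun v => inner ℝ v e) (by simp)
  have huw : ∀ a : E d, Integrable (fun x => u x * w (x + a)) volume := by
    intro a
    have hc1 : Continuous (fun x => w (x + a)) := hwc.comp (continuous_id.add continuous_const)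
    have hc2 : HasCompactSupport (fun x => w (x + a)) := hcsw.comp_homeomorph (Homeomorph.addRight a)
    have := hu.integrable_smul_right_of_hasCompactSupport hc1 hc2
    simpa [smul_eq_mul, mul_comm] using this
  have hterm : ∀ n, ENNReal.ofReal (∫ x, g n x) ≤ A := by
    intro n
    set a : E d := t n • e with ha
    have hanorm : ‖-a‖ = t n := by
      rw [norm_neg, ha, norm_smul, he, mul_one, Real.norm_of_nonneg (htpos n).le]
    have h1 : ∫ x, g n x = (t n)⁻¹ * ∫ x, (u (x + -a) - u x) * w x := by
      have h0 : ∀ x, g n x = (t n)⁻¹ * (u x * w (x + a) - u x * w x) := fun x => by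
        simp only [hg]; ring
      simp_rw [h0]
      rw [integral_const_mul, integral_sub (huw a) (by simpa using huw 0)]
      congr 1
      have htr : ∫ x, u x * w (x + a) = ∫ x, u (x + -a) * w x := by
        have := integral_add_right_eq_self (μ := volume) (fun x => u (x + -a) * w x) a
        rw [← this]
        congr 1
        ext x
        simp
      have hi1 : Integrable (fun x => u (x + -a) * w x) volume := by
        have := (huw a).comp_add_right (-a)
        simpa using this
      have hi2 : Integrable (fun x => u x * w x) volume := by simpa using huw 0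
      rw [htr, ← integral_sub hi1 hi2]
      congr 1
      ext x
      ring
    rw [h1]
    have h2 : ‖∫ x, (u (x + -a) - u x) * w x‖ₑ ≤ ENNReal.ofReal (t n) * A := by
      calc ‖∫ x, (u (x + -a) - u x) * w x‖ₑ ≤ ∫⁻ x, ‖(u (x + -a) - u x) * w x‖ₑ :=
            enorm_integral_le_lintegral_enorm _
        _ ≤ ∫⁻ x, ‖u (x + -a) - u x‖ₑ := by
            refine lintegral_mono (fun x => ?_)
            rw [enorm_mul]
            have : ‖w x‖ₑ ≤ 1 := by
              rw [← ofReal_norm]
              simpa using ENNReal.ofReal_le_ofReal (hwle x)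
            calc ‖u (x + -a) - u x‖ₑ * ‖w x‖ₑ ≤ ‖u (x + -a) - u x‖ₑ * 1 := by gcongr
              _ = _ := mul_one _
        _ ≤ ENNReal.ofReal ‖-a‖ * A := hbv (-a)
        _ = ENNReal.ofReal (t n) * A := by rw [hanorm]
    set J : ℝ := ∫ x, (u (x + -a) - u x) * w x with hJ
    calc ENNReal.ofReal ((t n)⁻¹ * J) ≤ ‖(t n)⁻¹ * J‖ₑ := by
          rw [← ofReal_norm]
          exact ENNReal.ofReal_le_ofReal (le_trans (le_abs_self _) (by simp [Real.norm_eq_abs]))
      _ = ENNReal.ofReal (t n)⁻¹ * ‖J‖ₑ := by
          rw [enorm_mul, ← ofReal_norm ((t n)⁻¹),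
            Real.norm_of_nonneg (inv_nonneg.2 (htpos n).le)]
      _ ≤ ENNReal.ofReal (t n)⁻¹ * (ENNReal.ofReal (t n) * A) := by gcongr
      _ = A := by
          rw [← mul_assoc, ← ENNReal.ofReal_mul (inv_nonneg.2 (htpos n).le),
            inv_mul_cancel₀ (htpos n).ne', ENNReal.ofReal_one, one_mul]
  exact le_of_tendsto (ENNReal.tendsto_ofReal hconv) (Eventually.of_forall hterm)

/-- A translation bound implies a bound of the total variation. -/
theorem totalVar_le_of_dq {u : E d → ℝ} (hu : LocallyIntegrable u volume) {A : ℝ≥0∞}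
    (hbv : ∀ h : E d, ∫⁻ x, ‖u (x + h) - u x‖ₑ ≤ ENNReal.ofReal ‖h‖ * A) :
    totalVar u ≤ ENNReal.ofReal d * A := by
  unfold totalVar
  refine iSup_le fun φ => iSup_le fun hφ => iSup_le fun hcs => iSup_le fun hle => ?_
  have hnorm : ∀ i : Fin d, ‖(EuclideanSpace.single i (1 : ℝ) : E d)‖ = 1 := fun i => by simp
  have hone := fun i : Fin d => dq_one_dir hu hbv hφ hcs hle (hnorm i)
  have hcont : ∀ i : Fin d,
      Continuous (fun x => inner ℝ (fderiv ℝ φ x (EuclideanSpace.single i (1 : ℝ)))
        (EuclideanSpace.single i (1 : ℝ) : E d)) := fun i => by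
    have h1 : Continuous (fderiv ℝ φ) := hφ.continuous_fderiv (by norm_num)
    exact (h1.clm_apply continuous_const).inner continuous_const
  have hcsi : ∀ i : Fin d,
      HasCompactSupport (fun x => inner ℝ (fderiv ℝ φ x (EuclideanSpace.single i (1 : ℝ)))
        (EuclideanSpace.single i (1 : ℝ) : E d)) := fun i => by
    have h1 : HasCompactSupport (fderiv ℝ φ) := hcs.fderiv (𝕜 := ℝ)
    exact h1.comp_left (g := fun L : E d →L[ℝ] E d =>
      inner ℝ (L (EuclideanSpace.single i (1 : ℝ))) (EuclideanSpace.single i (1 : ℝ) : E d))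
      (by simp)
  have hint : ∀ i : Fin d, Integrable (fun x => u x *
      inner ℝ (fderiv ℝ φ x (EuclideanSpace.single i (1 : ℝ)))
        (EuclideanSpace.single i (1 : ℝ) : E d)) volume := fun i => by
    have := hu.integrable_smul_right_of_hasCompactSupport (hcont i) (hcsi i)
    simpa [smul_eq_mul, mul_comm] using this
  have hsum : ∫ x, u x * divv φ x = ∑ i : Fin d, ∫ x, u x *
      inner ℝ (fderiv ℝ φ x (EuclideanSpace.single i (1 : ℝ)))
        (EuclideanSpace.single i (1 : ℝ) : E d) := by
    rw [← integral_finset_sum _ (fun i _ => hint i)]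
    congr 1
    ext x
    rw [divv, Finset.mul_sum]
  rw [hsum]
  have hofsum : ∀ (s : Finset (Fin d)) (a : Fin d → ℝ),
      ENNReal.ofReal (∑ i ∈ s, a i) ≤ ∑ i ∈ s, ENNReal.ofReal (a i) := by
    intro s a
    classical
    induction s using Finset.induction_on with
    | empty => simp
    | insert i s his ih =>
      rw [Finset.sum_insert his, Finset.sum_insert his]
      exact le_trans ENNReal.ofReal_add_le (by gcongr)
  calc ENNReal.ofReal _ ≤ _ := hofsum Finset.univ _
    _ ≤ ∑ _i : Fin d, A := Finset.sum_le_sum (fun i _ => hone i)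
    _ = ENNReal.ofReal d * A := by
        rw [Finset.sum_const, Finset.card_univ, Fintype.card_fin, nsmul_eq_mul,
          ENNReal.ofReal_natCast]

end ValeP137
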