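import Vale.Agent.Lib.P137W.Basic

/-! Weak type (1,1) of the uncentered maximal function over open balls. -/

open MeasureTheory Metric Set Filter Topology
open scoped ENNReal

noncomputable section

namespace ValeP137

variable {d : ℕ}

/-- One ball of large mean. -/
private theorem vol_le_of_mean {g : E d → ℝ} (hg : Integrable g volume) {l : ℝ} (hl : 0 < l)
    {c : E d} {r : ℝ} (hr : 0 < r) (hm : l < ⨍ x in ball c r, |g x|) :
    volume (ball c r) ≤ ENNReal.ofReal (1 / l) * ∫⁻ x in ball c r, ‖g x‖ₑ := by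
  have hvpos : 0 < volume.real (ball c r) :=
    ENNReal.toReal_pos (measure_ball_pos volume _ hr).ne' measure_ball_lt_top.ne
  rw [setAverage_eq, smul_eq_mul, inv_mul_eq_div, lt_div_iff₀ hvpos] at hm
  have h1 : ENNReal.ofReal (∫ x in ball c r, |g x|) = ∫⁻ x in ball c r, ‖g x‖ₑ := by
    have := ofReal_integral_norm_eq_lintegral_enorm (f := g) (μ := volume.restrict (ball c r))
      hg.integrableOn
    simpa [Real.norm_eq_abs] using this
  have hv : volume (ball c r) = ENNReal.ofReal (volume.real (ball c r)) :=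
    (ENNReal.ofReal_toReal measure_ball_lt_top.ne).symm
  rw [← h1, hv, ← ENNReal.ofReal_mul (by positivity)]
  refine ENNReal.ofReal_le_ofReal ?_
  rw [div_mul_eq_mul_div, one_mul, le_div_iff₀ hl]
  linarith

/-- The weak type (1,1) inequality, with the Vitali constant. -/
theorem weak_type {g : E d → ℝ} (hg : Integrable g volume) {l : ℝ} (hl : 0 < l) :
    volume {y : E d | ∃ (c : E d) (r : ℝ), 0 < r ∧ y ∈ ball c r ∧ l < ⨍ x in ball c r, |g x|} ≤
      ENNReal.ofReal (5 ^ d / l) * ∫⁻ x, ‖g x‖ₑ := by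
  set G := {y : E d | ∃ (c : E d) (r : ℝ), 0 < r ∧ y ∈ ball c r ∧ l < ⨍ x in ball c r, |g x|} with hG
  have hopen : IsOpen G := by
    rw [isOpen_iff_mem_nhds]
    rintro y ⟨c, r, hr, hy, hm⟩
    refine Filter.mem_of_superset (isOpen_ball.mem_nhds hy) fun z hz => ⟨c, r, hr, hz, hm⟩
  rw [hopen.measure_eq_iSup_isCompact]
  refine iSup_le fun K => iSup_le fun hKG => iSup_le fun hK => ?_
  -- choice of the balls
  choose! cc rr hrr hyb hmean using (fun y (hy : y ∈ G) => hy)
  obtain ⟨t, htK, hcov⟩ := hK.elim_nhds_subcover (fun y => ball (cc y) (rr y)) fun y hy =>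
    isOpen_ball.mem_nhds (hyb y (hKG hy))
  -- bound of the radii
  obtain ⟨R, hR⟩ : ∃ R : ℝ, ∀ a ∈ t, rr a ≤ R := by
    refine ⟨∑ a ∈ t, |rr a|, fun a ha => ?_⟩
    exact (le_abs_self _).trans (Finset.single_le_sum (f := fun a => |rr a|)
      (fun _ _ => abs_nonneg _) ha)
  obtain ⟨u, hut, hdisj, henl⟩ := Vitali.exists_disjoint_subfamily_covering_enlargement_ball
    (t : Set (E d)) cc rr R hR 5 (by norm_num)
  classical
  have hufin : u.Finite := (t.finite_toSet).subset hut
  set u' := hufin.toFinset with hu'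
  have hmem : ∀ {a}, a ∈ u' ↔ a ∈ u := fun {a} => hufin.mem_toFinset
  have hKsub : K ⊆ ⋃ b ∈ u', ball (cc b) (5 * rr b) := by
    intro y hy
    obtain ⟨a, hat, hya⟩ := mem_iUnion₂.1 (hcov hy)
    obtain ⟨b, hbu, hab⟩ := henl a hat
    exact mem_iUnion₂.2 ⟨b, hmem.2 hbu, hab hya⟩
  have hpos : ∀ b ∈ u', 0 < rr b := fun b hb =>
    hrr b (hKG (htK _ (hut (hmem.1 hb))))
  have hvol5 : ∀ b ∈ u', volume (ball (cc b) (5 * rr b)) =
      ENNReal.ofReal (5 ^ d) * volume (ball (cc b) (rr b)) := by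
    intro b hb
    have h1 := Measure.addHaar_ball_mul_of_pos (volume : Measure (E d)) (cc b) (r := 5)
      (by norm_num) (rr b)
    rw [h1, finrank_euclideanSpace_fin, Measure.addHaar_ball_center volume (cc b) (rr b)]
  calc volume K ≤ volume (⋃ b ∈ u', ball (cc b) (5 * rr b)) := measure_mono hKsub
    _ ≤ ∑ b ∈ u', volume (ball (cc b) (5 * rr b)) := measure_biUnion_finset_le _ _
    _ = ∑ b ∈ u', ENNReal.ofReal (5 ^ d) * volume (ball (cc b) (rr b)) :=
        Finset.sum_congr rfl hvol5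
    _ ≤ ∑ b ∈ u', ENNReal.ofReal (5 ^ d) *
          (ENNReal.ofReal (1 / l) * ∫⁻ x in ball (cc b) (rr b), ‖g x‖ₑ) := by
        refine Finset.sum_le_sum fun b hb => mul_le_mul_right ?_ _
        exact vol_le_of_mean hg hl (hpos b hb) (hmean b (hKG (htK _ (hut (hmem.1 hb)))))
    _ = ENNReal.ofReal (5 ^ d / l) * ∑ b ∈ u', ∫⁻ x in ball (cc b) (rr b), ‖g x‖ₑ := by
        rw [Finset.mul_sum]
        refine Finset.sum_congr rfl fun b _ => ?_
        rw [← mul_assoc, ← ENNReal.ofReal_mul (by positivity)]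
        congr 2
        ring
    _ = ENNReal.ofReal (5 ^ d / l) * ∫⁻ x in ⋃ b ∈ u', ball (cc b) (rr b), ‖g x‖ₑ := by
        rw [lintegral_biUnion_finset (fun a ha b hb hab => hdisj (hmem.1 ha) (hmem.1 hb) hab)
          (fun _ _ => measurableSet_ball)]
    _ ≤ _ := mul_le_mul_right (setLIntegral_le_lintegral _ _) _

end ValeP137
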