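import Vale.Agent.Lib.P137.Final
import Vale.Agent.Lib.P137W.WeakLines
import Vale.Agent.Lib.P137BV.WeakType
import Vale.Agent.Lib.P137BV.Approx
import Vale.Agent.Lib.P137BV.VarDq

/-! The variation bound for functions of bounded variation. -/

open MeasureTheory Metric Set Filter Topology
open scoped ENNReal ContDiff

noncomputable section

namespace ValeP137

variable {d : ℕ}

private theorem avg_le_add {f g : E d → ℝ} (hf : Integrable f volume) (hg : Integrable g volume)
    {k : E d → ℝ} (hk : Integrable k volume) (hle : ∀ x, |f x| ≤ |g x| + |k x|) (c : E d)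
    {r : ℝ} :
    (⨍ x in ball c r, |f x|) ≤ (⨍ x in ball c r, |g x|) + ⨍ x in ball c r, |k x| := by
  rw [setAverage_eq, setAverage_eq, setAverage_eq, smul_eq_mul, smul_eq_mul, smul_eq_mul, ← mul_add]
  refine mul_le_mul_of_nonneg_left ?_ (by positivity)
  rw [← integral_add hg.abs.integrableOn hk.abs.integrableOn]
  exact setIntegral_mono hf.abs.integrableOn (hg.abs.add hk.abs).integrableOn hle

/-- The a.e. comparison of the maximal functions. -/
theorem ae_compare {f : E d → ℝ} (hf : Integrable f volume) {fk : ℕ → E d → ℝ}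
    (hc : ∀ k, Continuous (fk k)) (hcs : ∀ k, HasCompactSupport (fk k))
    (hclose : ∀ k, ∫⁻ x, ‖f x - fk k x‖ₑ ≤ ENNReal.ofReal ((1 / 4) ^ k)) :
    ∀ᵐ y : E d, BddAbove (avgSet f y) ∧
      Tendsto (fun k => Mtilde (fk k) y) atTop (𝓝 (Mtilde f y)) := by
  set S : ℕ → Set (E d) := fun k => {y : E d | ∃ (c : E d) (r : ℝ), 0 < r ∧ y ∈ ball c r ∧
    (1 / 2 : ℝ) ^ k < ⨍ x in ball c r, |f x - fk k x|} with hS
  have hkint : ∀ k, Integrable (fk k) volume := fun k =>
    (hc k).integrable_of_hasCompactSupport (hcs k)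
  have hsub : ∀ k, Integrable (fun x => f x - fk k x) volume := fun k => hf.sub (hkint k)
  have hmeas : ∀ k, volume (S k) ≤ ENNReal.ofReal (5 ^ d * (1 / 2) ^ k) := by
    intro k
    have h1 := weak_type (hsub k) (l := (1 / 2 : ℝ) ^ k) (by positivity)
    calc volume (S k) ≤ _ := h1
      _ ≤ ENNReal.ofReal (5 ^ d / (1 / 2) ^ k) * ENNReal.ofReal ((1 / 4) ^ k) :=
        mul_le_mul_right (hclose k) _
      _ = _ := by
        rw [← ENNReal.ofReal_mul (by positivity)]
        congr 1
        have : ((1 : ℝ) / 4) ^ k = (1 / 2) ^ k * (1 / 2) ^ k := by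
          rw [← mul_pow]; norm_num
        rw [this]
        field_simp
  have hsum : ∑' k, volume (S k) ≠ ⊤ := by
    have hs : Summable fun k : ℕ => (5 : ℝ) ^ d * (1 / 2) ^ k :=
      (summable_geometric_of_lt_one (by norm_num) (by norm_num)).mul_left _
    have hle : ∑' k, volume (S k) ≤ ∑' k : ℕ, ENNReal.ofReal ((5 : ℝ) ^ d * (1 / 2) ^ k) :=
      ENNReal.tsum_le_tsum hmeas
    exact ne_top_of_le_ne_top hs.tsum_ofReal_ne_top hle
  filter_upwards [ae_eventually_notMem hsum] with y hy
  have hclose' : ∀ᶠ k in atTop, ∀ (c : E d) (r : ℝ), 0 < r → y ∈ ball c r →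
      (⨍ x in ball c r, |f x - fk k x|) ≤ (1 / 2 : ℝ) ^ k := by
    filter_upwards [hy] with k hk c r hr hyc
    by_contra hcon
    exact hk ⟨c, r, hr, hyc, not_le.mp hcon⟩
  obtain ⟨k0, hk0⟩ := eventually_atTop.1 hclose'
  have hbd : ∀ {g : E d → ℝ}, Continuous g → HasCompactSupport g → BddAbove (avgSet g y) :=
    fun hg hgc => Mtilde_bdd hg hgc y
  have hb : BddAbove (avgSet f y) := by
    obtain ⟨M, hM⟩ := hbd (hc k0) (hcs k0)
    refine ⟨M + (1 / 2 : ℝ) ^ k0, ?_⟩
    rintro _ ⟨c, r, hr, hyc, rfl⟩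
    have h1 := avg_le_add (c := c) (r := r) hf (hkint k0) (hsub k0)
      (fun x => by
        have := abs_add_le (fk k0 x) (f x - fk k0 x)
        simpa using this)
    have h2 := hM ⟨c, r, hr, hyc, rfl⟩
    have h3 := hk0 k0 le_rfl c r hr hyc
    linarith
  refine ⟨hb, ?_⟩
  have hsq : Tendsto (fun k : ℕ => (1 / 2 : ℝ) ^ k) atTop (𝓝 0) :=
    tendsto_pow_atTop_nhds_zero_of_lt_one (by norm_num) (by norm_num)
  have hne : (avgSet f y).Nonempty := ⟨_, y, 1, one_pos, mem_ball_self one_pos, rfl⟩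
  have hcmp : ∀ k, k0 ≤ k → |Mtilde (fk k) y - Mtilde f y| ≤ (1 / 2 : ℝ) ^ k := by
    intro k hk
    rw [abs_le]
    constructor
    · have : Mtilde f y ≤ Mtilde (fk k) y + (1 / 2 : ℝ) ^ k := by
        refine csSup_le hne ?_
        rintro _ ⟨c, r, hr, hyc, rfl⟩
        have h1 := avg_le_add (c := c) (r := r) hf (hkint k) (hsub k)
          (fun x => by
            have := abs_add_le (fk k x) (f x - fk k x)
            simpa using this)
        have h2 := le_Mtilde (hc k) (hcs k) hr hyc
        have h3 := hk0 k hk c r hr hyc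
        linarith
      linarith
    · have : Mtilde (fk k) y ≤ Mtilde f y + (1 / 2 : ℝ) ^ k := by
        refine Mtilde_le fun c r hr hyc => ?_
        have h1 := avg_le_add (c := c) (r := r) (hkint k) hf (hsub k)
          (fun x => by
            have := abs_sub_abs_le_abs_sub (fk k x) (f x)
            have h5 := abs_sub_comm (f x) (fk k x)
            linarith)
        have h2 : (⨍ x in ball c r, |f x|) ≤ Mtilde f y := le_csSup hb ⟨c, r, hr, hyc, rfl⟩
        have h3 := hk0 k hk c r hr hyc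
        linarith
      linarith
  refine squeeze_zero_norm' ?_ hsq |> tendsto_iff_norm_sub_tendsto_zero.2
  filter_upwards [eventually_ge_atTop k0] with k hk
  simpa [Real.norm_eq_abs] using hcmp k hk

/-- Main theorem of the layer. -/
theorem bv_main (hd : 1 ≤ d) {f : E d → ℝ} (hf : Integrable f volume) (hV : totalVar f ≠ ⊤) :
    (∀ᵐ y : E d, BddAbove (avgSet f y)) ∧ LocallyIntegrable (Mtilde f) volume ∧
    (∀ h : E d, ∫⁻ x, ‖Mtilde f (x + h) - Mtilde f x‖ₑ ≤
      ENNReal.ofReal ‖h‖ * (ENNReal.ofReal (d * (16 * d ^ 2 * CB d)) * totalVar f)) ∧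
    totalVar (Mtilde f) ≤ ENNReal.ofReal (d * (d * (16 * d ^ 2 * CB d))) * totalVar f := by
  obtain ⟨fk, hsm, hcs, hclose, hgrad⟩ := exists_approx_bv hd hf
  have hc1 : ∀ k, ContDiff ℝ 1 (fk k) := fun k => (hsm k).of_le (by simp)
  have hc : ∀ k, Continuous (fk k) := fun k => (hc1 k).continuous
  have hae := ae_compare hf hc hcs hclose
  have hK0 := CB_nonneg d
  set K : ℝ := 16 * d ^ 2 * CB d with hK
  have hKnn : 0 ≤ K := by positivity
  set V := totalVar f with hVdef
  -- the translation bound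
  have hbv : ∀ h : E d, ∫⁻ x, ‖Mtilde f (x + h) - Mtilde f x‖ₑ ≤
      ENNReal.ofReal ‖h‖ * (ENNReal.ofReal (d * K) * V) := by
    intro h
    have hmeask : ∀ k, Measurable fun x => ‖Mtilde (fk k) (x + h) - Mtilde (fk k) x‖ₑ := by
      intro k
      have hcontk := Mtilde_continuous (hc1 k) (hcs k)
      exact ((hcontk.comp (continuous_id.add continuous_const)).measurable.sub
        hcontk.measurable).enorm
    have hshift : ∀ᵐ x : E d, Tendsto (fun k => Mtilde (fk k) (x + h)) atTop
        (𝓝 (Mtilde f (x + h))) := by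
      have hq := (measurePreserving_add_right (volume : Measure (E d)) h).quasiMeasurePreserving
      have := hq.ae hae
      filter_upwards [this] with x hx using hx.2
    have hlim : ∀ᵐ x : E d, ‖Mtilde f (x + h) - Mtilde f x‖ₑ =
        liminf (fun k => ‖Mtilde (fk k) (x + h) - Mtilde (fk k) x‖ₑ) atTop := by
      filter_upwards [hae, hshift] with x hx hx2
      exact ((hx2.sub hx.2).enorm).liminf_eq.symm
    have hbdk : ∀ k, ∫⁻ x, ‖Mtilde (fk k) (x + h) - Mtilde (fk k) x‖ₑ ≤
        ENNReal.ofReal (K * ‖h‖) * (ENNReal.ofReal d * V + ENNReal.ofReal ((1 / 4) ^ k)) := by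
      intro k
      refine (Mtilde_bound hd (hc1 k) (hcs k) h).trans ?_
      gcongr
      refine le_trans (le_of_eq ?_) (hgrad k)
      refine lintegral_congr fun x => ?_
      rw [← ofReal_norm, norm_gradient_eq]
    have hlimb : Tendsto (fun k : ℕ => ENNReal.ofReal (K * ‖h‖) *
        (ENNReal.ofReal d * V + ENNReal.ofReal ((1 / 4) ^ k))) atTop
        (𝓝 (ENNReal.ofReal (K * ‖h‖) * (ENNReal.ofReal d * V + 0))) := by
      refine ENNReal.Tendsto.const_mul (tendsto_const_nhds.add ?_) (Or.inr ENNReal.ofReal_ne_top)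
      have hsq : Tendsto (fun k : ℕ => ((1 : ℝ) / 4) ^ k) atTop (𝓝 0) :=
        tendsto_pow_atTop_nhds_zero_of_lt_one (by norm_num) (by norm_num)
      simpa using ENNReal.tendsto_ofReal hsq
    calc ∫⁻ x, ‖Mtilde f (x + h) - Mtilde f x‖ₑ
        = ∫⁻ x, liminf (fun k => ‖Mtilde (fk k) (x + h) - Mtilde (fk k) x‖ₑ) atTop :=
          lintegral_congr_ae hlim
      _ ≤ liminf (fun k => ∫⁻ x, ‖Mtilde (fk k) (x + h) - Mtilde (fk k) x‖ₑ) atTop :=
          lintegral_liminf_le hmeask
      _ ≤ liminf (fun k : ℕ => ENNReal.ofReal (K * ‖h‖) *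
            (ENNReal.ofReal d * V + ENNReal.ofReal ((1 / 4) ^ k))) atTop :=
          liminf_le_liminf (Eventually.of_forall hbdk)
      _ = ENNReal.ofReal (K * ‖h‖) * (ENNReal.ofReal d * V + 0) := hlimb.liminf_eq
      _ = _ := by
          rw [add_zero, ← mul_assoc, ← mul_assoc, ← ENNReal.ofReal_mul (by positivity),
            ← ENNReal.ofReal_mul (by positivity)]
          congr 2
          ring
  -- measurability and local integrability
  have hmeas : AEStronglyMeasurable (Mtilde f) volume :=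
    aestronglyMeasurable_of_tendsto_ae atTop
      (fun k => (Mtilde_continuous (hc1 k) (hcs k)).aestronglyMeasurable)
      (by filter_upwards [hae] with y hy using hy.2)
  have hloc : LocallyIntegrable (Mtilde f) volume := by
    refine locInt_of_bv (A := (ENNReal.ofReal (d * K) * V).toReal) hmeas fun h => ?_
    refine (hbv h).trans (le_of_eq ?_)
    have hne : ENNReal.ofReal (d * K) * V ≠ ⊤ := ENNReal.mul_ne_top ENNReal.ofReal_ne_top hV
    rw [mul_comm ((ENNReal.ofReal (d * K) * V).toReal), ENNReal.ofReal_mul (norm_nonneg h),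
      ENNReal.ofReal_toReal hne]
  refine ⟨?_, hloc, hbv, ?_⟩
  · filter_upwards [hae] with y hy using hy.1
  · refine (totalVar_le_of_dq hloc hbv).trans (le_of_eq ?_)
    rw [← mul_assoc, ← ENNReal.ofReal_mul (by positivity)]

end ValeP137
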